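import Vale.Agent.P096.G.Sep

namespace Vale.Agent.Results.P096.Full

universe u

variable {H : Type u} [NormedAddCommGroup H] [InnerProductSpace ℂ H] [CompleteSpace H]

/-- The closed unit ball of `M`. -/
def unitBall (M : VonNeumannAlgebra H) : Set (H →L[ℂ] H) := {x | x ∈ M ∧ ‖x‖ ≤ 1}

/-- The Kadison-Kastler distance. -/
noncomputable def kkDist (M N : VonNeumannAlgebra H) : ℝ :=
  Metric.hausdorffDist (unitBall M) (unitBall N)

/-- The strong Kadison-Kastler conjecture. -/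
theorem result (ε : ℝ) (hε : 0 < ε) : ∃ δ : ℝ, 0 < δ ∧ ∀ (H : Type u) [NormedAddCommGroup H]
    [InnerProductSpace ℂ H] [CompleteSpace H] (M N : VonNeumannAlgebra H), kkDist M N < δ →
      ∃ u ∈ unitary (H →L[ℂ] H), (∀ T, T ∈ N ↔ ∃ x ∈ M, T = u * x * star u) ∧ ‖u - 1‖ < ε := by
  obtain ⟨δ, hδ, h⟩ := Vale.Agent.P096.main_full.{u} hε
  refine ⟨δ, hδ, fun H _ _ _ M N hd => h H M N ?_⟩
  have e (P : VonNeumannAlgebra H) : unitBall P = ↑P ∩ Metric.closedBall 0 1 :=
    Set.ext fun x => by simp [unitBall]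
  rwa [← e, ← e]

end Vale.Agent.Results.P096.Full
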