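import Vale.Agent.P096.Main

namespace Vale.Agent.Results.P096.Semifinite

open scoped ENNReal NNReal

universe u

variable {H : Type u} [NormedAddCommGroup H] [InnerProductSpace ℂ H] [CompleteSpace H]

/-- The positive cone of `M`. -/
def posCone (M : VonNeumannAlgebra H) : Set (H →L[ℂ] H) := {x | x ∈ M ∧ 0 ≤ x}

/-- `τ` is a weight on the positive cone of `M`. -/
def IsWeight (M : VonNeumannAlgebra H) (τ : (H →L[ℂ] H) → ℝ≥0∞) : Prop :=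
  (∀ x ∈ posCone M, ∀ y ∈ posCone M, τ (x + y) = τ x + τ y) ∧
    ∀ x ∈ posCone M, ∀ c : ℝ≥0, τ ((c : ℂ) • x) = c * τ x

def IsTracial (M : VonNeumannAlgebra H) (τ : (H →L[ℂ] H) → ℝ≥0∞) : Prop :=
  ∀ a ∈ M, τ (star a * a) = τ (a * star a)

def IsFaithful (M : VonNeumannAlgebra H) (τ : (H →L[ℂ] H) → ℝ≥0∞) : Prop :=
  ∀ x ∈ posCone M, τ x = 0 → x = 0

def IsNormal (M : VonNeumannAlgebra H) (τ : (H →L[ℂ] H) → ℝ≥0∞) : Prop :=
  ∀ s ⊆ posCone M, s.Nonempty → DirectedOn (· ≤ ·) s → ∀ x, IsLUB s x → τ x = ⨆ y ∈ s, τ y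

def IsSemifiniteWeight (M : VonNeumannAlgebra H) (τ : (H →L[ℂ] H) → ℝ≥0∞) : Prop :=
  ∀ x ∈ posCone M, x ≠ 0 → ∃ y ∈ posCone M, y ≤ x ∧ y ≠ 0 ∧ τ y ≠ ∞

/-- `M` has a faithful normal semifinite trace. -/
def IsSemifinite (M : VonNeumannAlgebra H) : Prop :=
  ∃ τ, IsWeight M τ ∧ IsTracial M τ ∧ IsFaithful M τ ∧ IsNormal M τ ∧ IsSemifiniteWeight M τ

/-- The closed unit ball of `M`. -/
def unitBall (M : VonNeumannAlgebra H) : Set (H →L[ℂ] H) := {x | x ∈ M ∧ ‖x‖ ≤ 1}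

/-- The Kadison-Kastler distance. -/
noncomputable def kkDist (M N : VonNeumannAlgebra H) : ℝ :=
  Metric.hausdorffDist (unitBall M) (unitBall N)

/-- Strong Kadison-Kastler stability of semifinite von Neumann algebras, with a universal `δ`. -/
theorem result (ε : ℝ) (hε : 0 < ε) : ∃ δ : ℝ, 0 < δ ∧ ∀ (H : Type u) [NormedAddCommGroup H]
    [InnerProductSpace ℂ H] [CompleteSpace H] (M N : VonNeumannAlgebra H),
    IsSemifinite M → kkDist M N < δ →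
      ∃ u ∈ unitary (H →L[ℂ] H), (∀ T, T ∈ N ↔ ∃ x ∈ M, T = u * x * star u) ∧ ‖u - 1‖ < ε := by
  obtain ⟨δ, hδ, h⟩ := Vale.Agent.P096.main.{u} hε
  refine ⟨δ, hδ, fun H _ _ _ M N ⟨τ, h1, h2, h3, h4, h5⟩ hd => h H M N ⟨τ, ?_⟩ ?_⟩
  · exact ⟨fun x hx y hy hx' hy' => h1.1 x ⟨hx, hx'⟩ y ⟨hy, hy'⟩, fun x hx hx' => h1.2 x ⟨hx, hx'⟩,
      h2, fun x hx hx' => h3 x ⟨hx, hx'⟩, fun s x hs hs' hd hx => h4 s hs' hs hd x hx,
      fun x hx hx' h0 => (h5 x ⟨hx, hx'⟩ h0).imp fun _ hy => ⟨hy.1.1, hy.1.2, hy.2⟩⟩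
  · have e (P : VonNeumannAlgebra H) : unitBall P = ↑P ∩ Metric.closedBall 0 1 :=
      Set.ext fun x => by simp [unitBall]
    rwa [← e, ← e]

end Vale.Agent.Results.P096.Semifinite
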